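import Mathlib

/-!
# Doubling subsets and bi-Lipschitz embeddings
-/

namespace Vale.Agent.P208X

open Metric Finset

/-- `X` is doubling with constant at most `lam`, for a family `B` of balls (`B = Metric.ball` or
`B = Metric.closedBall`): every ball with centre in `X` meets `X` in a set that is covered by at
most `lam` balls of half its radius with centres in `X`. -/
def Doubling {H : Type*} [PseudoMetricSpace H] (B : H → ℝ → Set H) (X : Set H) (lam : ℕ) : Prop :=
  ∀ x ∈ X, ∀ r : ℝ, 0 < r → ∃ C : Finset H, (C : Set H) ⊆ X ∧ C.card ≤ lam ∧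
    X ∩ B x r ⊆ ⋃ c ∈ C, B c (r / 2)

/-- `X` embeds into `ℝ ^ k` with distortion at most `D`. -/
def EmbedsInto {H : Type*} [PseudoMetricSpace H] (X : Set H) (k : ℕ) (D : ℝ) : Prop :=
  ∃ (a : ℝ) (f : H → EuclideanSpace ℝ (Fin k)), 0 < a ∧ ∀ x ∈ X, ∀ y ∈ X,
    a * dist x y ≤ ‖f x - f y‖ ∧ ‖f x - f y‖ ≤ D * a * dist x y

end Vale.Agent.P208X
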