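import Vale.Agent.P208X.Grid

/-!
# From bounds on linearly independent families to isometric embeddings
-/

namespace Vale.Agent.P208X

open Metric Finset

variable {H : Type*} [NormedAddCommGroup H] [InnerProductSpace ℝ H]

/-- The set lies in a translate of a finite-dimensional subspace. -/
theorem embeds_of_subspace (X : Set H) (x0 : H) (W : Submodule ℝ H) [FiniteDimensional ℝ W]
    (hX : ∀ x ∈ X, x - x0 ∈ W) : EmbedsInto X (Module.finrank ℝ W) 1 := by
  classical
  refine ⟨1, fun x => if hx : x - x0 ∈ W then (stdOrthonormalBasis ℝ W).repr ⟨x - x0, hx⟩ else 0,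
    one_pos, ?_⟩
  intro x hx y hy
  have e1 : ‖(if hx : x - x0 ∈ W then (stdOrthonormalBasis ℝ W).repr ⟨x - x0, hx⟩ else 0)
      - (if hy : y - x0 ∈ W then (stdOrthonormalBasis ℝ W).repr ⟨y - x0, hy⟩ else 0)‖
      = dist x y := by
    rw [dif_pos (hX x hx), dif_pos (hX y hy), ← map_sub, LinearIsometryEquiv.norm_map,
      dist_eq_norm]
    simp
  constructor
  · simp only [e1]
    simp
  · simp only [e1]
    simp

/-- A bound for all independent families taken from a set bounds the dimension of its span. -/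
theorem span_bound (Y : Set H) (lam : ℕ)
    (h : ∀ (N : ℕ) (v : Fin N → H), LinearIndependent ℝ v → (∀ i, v i ∈ Y) → 2 ^ N ≤ lam) :
    FiniteDimensional ℝ (Submodule.span ℝ Y) ∧
      2 ^ (Module.finrank ℝ (Submodule.span ℝ Y)) ≤ lam := by
  classical
  obtain ⟨b, hbY, hbs, hbi⟩ := exists_linearIndependent ℝ Y
  have hfin : b.Finite := by
    by_contra hinf
    have hinf' : b.Infinite := hinf
    obtain ⟨t, htb, htc⟩ := hinf'.exists_subset_card_eq lam
    have h1 : LinearIndependent ℝ (fun i : Fin lam => ((t.equivFinOfCardEq htc).symm i : H)) := by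
      exact LinearIndependent.comp hbi
        (fun i : Fin lam => (⟨((t.equivFinOfCardEq htc).symm i : H),
          htb ((t.equivFinOfCardEq htc).symm i).2⟩ : ↥b))
        (fun i k hik => (t.equivFinOfCardEq htc).symm.injective
          (Subtype.ext (congrArg (fun z : ↥b => (z : H)) hik)))
    have h3 := h lam _ h1 (fun i => hbY (htb ((t.equivFinOfCardEq htc).symm i).2))
    exact absurd h3 (not_le.2 Nat.lt_two_pow_self)
  have : Fintype b := hfin.fintype
  rw [← hbs]
  refine ⟨FiniteDimensional.span_of_finite ℝ hfin, ?_⟩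
  have h1 := finrank_span_set_eq_card hbi
  rw [h1]
  have h2 : LinearIndependent ℝ
      (fun i : Fin b.toFinset.card => ((b.toFinset.equivFin).symm i : H)) := by
    exact LinearIndependent.comp hbi
      (fun i : Fin b.toFinset.card => (⟨((b.toFinset.equivFin).symm i : H),
        Set.mem_toFinset.1 ((b.toFinset.equivFin).symm i).2⟩ : ↥b))
      (fun i k hik => (b.toFinset.equivFin).symm.injective
        (Subtype.ext (congrArg (fun z : ↥b => (z : H)) hik)))
  exact h _ _ h2 (fun i => hbY (Set.mem_toFinset.1 ((b.toFinset.equivFin).symm i).2))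

theorem ball_prop (x : H) (r : ℝ) (y z : H) (hy : y ∈ ball x r) (hz : z ∈ ball x r) :
    dist y z ≤ 2 * r := by
  have h1 := dist_triangle_right y z x
  rw [mem_ball] at hy hz
  linarith

theorem closedBall_prop (x : H) (r : ℝ) (y z : H) (hy : y ∈ closedBall x r)
    (hz : z ∈ closedBall x r) : dist y z ≤ 2 * r := by
  have h1 := dist_triangle_right y z x
  rw [mem_closedBall] at hy hz
  linarith

/-- Grid bound for either kind of balls. -/
theorem grid_bound' {X : Set H} {lam : ℕ} (hX : Doubling ball X lam ∨ Doubling closedBall X lam)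
    {N : ℕ} (v : Fin N → H) (hv : LinearIndependent ℝ v)
    (hgrid : ∀ m : ℕ, ∃ (p : H) (t : ℝ), 0 < t ∧ ∀ n : Fin N → ℕ, (∀ i, n i < m) →
      p + t • ∑ i, (n i : ℝ) • v i ∈ X) : 2 ^ N ≤ lam := by
  rcases hX with hX | hX
  · exact grid_bound ball_prop (fun x r y h => mem_ball.2 h) hX v hv hgrid
  · exact grid_bound closedBall_prop (fun x r y h => mem_closedBall.2 h.le) hX v hv hgrid

/-- Sets invariant under a set `T` of translations. -/
theorem translation_bound {X T : Set H} {lam : ℕ} (hne : X.Nonempty)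
    (hX : Doubling ball X lam ∨ Doubling closedBall X lam)
    (hT : ∀ x ∈ X, ∀ s ∈ T, x + s ∈ X) :
    FiniteDimensional ℝ (Submodule.span ℝ T) ∧
      2 ^ (Module.finrank ℝ (Submodule.span ℝ T)) ≤ lam := by
  classical
  refine span_bound T lam fun N v hv hvT => ?_
  obtain ⟨x, hx⟩ := hne
  refine grid_bound' hX v hv fun m => ⟨x, 1, one_pos, fun n _ => ?_⟩
  rw [one_smul]
  have h1 : ∀ (y : H), y ∈ X → ∀ i (q : ℕ), y + (q : ℝ) • v i ∈ X := by
    intro y hy i q
    induction q with
    | zero => simpa using hy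
    | succ q ih =>
      have := hT _ ih _ (hvT i)
      rw [Nat.cast_succ, add_smul, one_smul, ← add_assoc]
      exact this
  have h2 : ∀ s : Finset (Fin N), x + ∑ i ∈ s, (n i : ℝ) • v i ∈ X := by
    intro s
    induction s using Finset.induction_on with
    | empty => simpa using hx
    | insert a s ha ih =>
      rw [sum_insert ha, add_comm ((n a : ℝ) • v a), ← add_assoc]
      exact h1 _ ih a (n a)
  exact h2 univ

/-- averages of `2 ^ q` points of a midpoint-closed set -/
theorem dyadic {X : Set H} (hmid : ∀ x ∈ X, ∀ y ∈ X, midpoint ℝ x y ∈ X) (q : ℕ) :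
    ∀ l : List H, l.length = 2 ^ q → (∀ y ∈ l, y ∈ X) → ((2 : ℝ) ^ q)⁻¹ • l.sum ∈ X := by
  induction q with
  | zero =>
    intro l hl hX
    obtain ⟨a, rfl⟩ := List.length_eq_one_iff.1 (by simpa using hl)
    simpa using hX a (by simp)
  | succ q ih =>
    intro l hl hX
    have h1 := ih (l.take (2 ^ q)) (by
      rw [List.length_take, hl, pow_succ]
      omega) (fun y hy => hX y (List.mem_of_mem_take hy))
    have h2 := ih (l.drop (2 ^ q)) (by
      rw [List.length_drop, hl, pow_succ]
      omega) (fun y hy => hX y (List.mem_of_mem_drop hy))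
    have h3 := hmid _ h1 _ h2
    rw [midpoint_eq_smul_add, ← smul_add, smul_smul, List.sum_take_add_sum_drop] at h3
    have e : ((2 : ℝ) ^ (q + 1))⁻¹ = ⅟2 * (2 ^ q)⁻¹ := by
      rw [pow_succ, mul_inv, invOf_eq_inv]
      ring
    rw [e]
    exact h3

/-- Midpoint-closed sets. -/
theorem midpoint_bound {X : Set H} {lam : ℕ} (x0 : H) (hx0 : x0 ∈ X)
    (hX : Doubling ball X lam ∨ Doubling closedBall X lam)
    (hmid : ∀ x ∈ X, ∀ y ∈ X, midpoint ℝ x y ∈ X) :
    FiniteDimensional ℝ (Submodule.span ℝ ((fun x => x - x0) '' X)) ∧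
      2 ^ (Module.finrank ℝ (Submodule.span ℝ ((fun x => x - x0) '' X))) ≤ lam := by
  classical
  refine span_bound _ lam fun N v hv hvT => ?_
  have hvX : ∀ i, x0 + v i ∈ X := by
    intro i
    obtain ⟨x, hx, hxv⟩ := hvT i
    rw [← hxv]
    simpa using hx
  refine grid_bound' hX v hv fun m => ?_
  obtain ⟨q, hq⟩ := pow_unbounded_of_one_lt (N * m) (one_lt_two : (1 : ℕ) < 2)
  refine ⟨x0, ((2 : ℝ) ^ q)⁻¹, by positivity, fun n hn => ?_⟩
  have hsum : ∑ i, n i ≤ 2 ^ q := by
    calc ∑ i, n i ≤ ∑ _i : Fin N, m := sum_le_sum fun i _ => (hn i).le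
      _ = N * m := by simp
      _ ≤ 2 ^ q := hq.le
  set s : Multiset H := ∑ i, Multiset.replicate (n i) (x0 + v i)
    + Multiset.replicate (2 ^ q - ∑ i, n i) x0 with hs
  have hcard : s.card = 2 ^ q := by
    rw [hs, Multiset.card_add, Multiset.card_sum, Multiset.card_replicate]
    simp only [Multiset.card_replicate]
    omega
  have hmem : ∀ y ∈ s, y ∈ X := by
    intro y hy
    rw [hs, Multiset.mem_add] at hy
    rcases hy with hy | hy
    · rw [Multiset.mem_sum] at hy
      obtain ⟨i, _, hi⟩ := hy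
      rw [Multiset.eq_of_mem_replicate hi]
      exact hvX i
    · rw [Multiset.eq_of_mem_replicate hy]
      exact hx0
  have hss : s.sum = (2 ^ q : ℕ) • x0 + ∑ i, (n i) • v i := by
    rw [hs, Multiset.sum_add, Multiset.sum_replicate]
    have e1 : (∑ i, Multiset.replicate (n i) (x0 + v i)).sum
        = ∑ i, (n i) • (x0 + v i) := by
      rw [← Multiset.coe_sumAddMonoidHom, map_sum]
      exact sum_congr rfl fun i _ => by simp
    rw [e1]
    simp only [smul_add, sum_add_distrib]
    rw [← Finset.sum_smul]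
    have e2 : (2 ^ q : ℕ) • x0 = (∑ i, n i) • x0 + (2 ^ q - ∑ i, n i) • x0 := by
      rw [← add_smul]
      congr 1
      omega
    rw [e2]
    abel
  have h1 := dyadic hmid q s.toList (by rw [Multiset.length_toList, hcard])
    (fun y hy => hmem y (Multiset.mem_toList.1 hy))
  rw [Multiset.sum_toList, hss, smul_add] at h1
  have e3 : ((2 : ℝ) ^ q)⁻¹ • ((2 ^ q : ℕ) • x0) = x0 := by
    rw [← Nat.cast_smul_eq_nsmul ℝ, smul_smul]
    push_cast
    rw [inv_mul_cancel₀ (by positivity), one_smul]
  rw [e3] at h1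
  have e4 : ∑ i, (n i) • v i = ∑ i, (n i : ℝ) • v i :=
    sum_congr rfl fun i _ => (Nat.cast_smul_eq_nsmul ℝ _ _).symm
  rw [e4] at h1
  exact h1

end Vale.Agent.P208X
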