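import Vale.Agent.P208X.Grid

/-!
# Gluing and compactness for doubling sets
-/

namespace Vale.Agent.P208X

open Metric Finset

section basic
variable {H : Type*} [PseudoMetricSpace H]

theorem embeds_mono {X : Set H} {k : ℕ} {D D' : ℝ} (hD : D ≤ D') (h : EmbedsInto X k D) :
    EmbedsInto X k D' := by
  obtain ⟨a, f, ha, hf⟩ := h
  refine ⟨a, f, ha, fun x hx y hy => ⟨(hf x hx y hy).1, (hf x hx y hy).2.trans ?_⟩⟩
  have h1 : 0 ≤ a * dist x y := by positivity
  nlinarith

theorem embeds_subset {X Y : Set H} {k : ℕ} {D : ℝ} (hXY : X ⊆ Y) (h : EmbedsInto Y k D) :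
    EmbedsInto X k D := by
  obtain ⟨a, f, ha, hf⟩ := h
  exact ⟨a, f, ha, fun x hx y hy => hf x (hXY hx) y (hXY hy)⟩

/-- A subset of a doubling set is doubling. -/
theorem doubling_subset {X Y : Set H} {lam : ℕ} (hYX : Y ⊆ X)
    (hX : Doubling closedBall X lam) : Doubling closedBall Y (lam ^ 2) := by
  classical
  intro x hx r hr
  obtain ⟨C, hCX, hCc, hC⟩ := cover_iter hX 2 x (hYX hx) r hr
  have h1 : ∀ c : H, ∃ q ∈ Y, (Y ∩ closedBall c (r / 2 ^ 2)).Nonempty →
      q ∈ closedBall c (r / 2 ^ 2) := by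
    intro c
    by_cases h : (Y ∩ closedBall c (r / 2 ^ 2)).Nonempty
    · obtain ⟨q, hq⟩ := h
      exact ⟨q, hq.1, fun _ => hq.2⟩
    · exact ⟨x, hx, fun h' => absurd h' h⟩
  choose q hqY hq using h1
  refine ⟨C.image q, ?_, card_image_le.trans hCc, ?_⟩
  · intro y hy
    rw [coe_image] at hy
    obtain ⟨c, _, rfl⟩ := hy
    exact hqY c
  · intro y hy
    have h2 := hC ⟨hYX hy.1, hy.2⟩
    simp only [Set.mem_iUnion] at h2 ⊢
    obtain ⟨c, hc, hyc⟩ := h2
    refine ⟨q c, mem_image_of_mem q hc, ?_⟩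
    have h3 := hq c ⟨y, hy.1, hyc⟩
    rw [mem_closedBall] at h3 hyc ⊢
    have h4 := dist_triangle_right y (q c) c
    have h5 : r / 2 ^ 2 + r / 2 ^ 2 = r / 2 := by ring
    linarith

/-- Compactness: it is enough to embed the finite subsets. -/
theorem embeds_of_finite {X : Set H} {k : ℕ} {D : ℝ} (hD : 0 ≤ D)
    (h : ∀ F : Finset H, (F : Set H) ⊆ X → EmbedsInto (F : Set H) k D) : EmbedsInto X k D := by
  classical
  rcases X.eq_empty_or_nonempty with rfl | ⟨x0, hx0⟩
  · exact ⟨1, fun _ => 0, one_pos, fun x hx => absurd hx (Set.notMem_empty x)⟩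
  set K : Set (H → EuclideanSpace ℝ (Fin k)) :=
    Set.pi Set.univ (fun x => closedBall 0 (D * dist x x0)) with hK
  have hKc : IsCompact K := isCompact_univ_pi fun x => isCompact_closedBall _ _
  set t : X × X → Set (H → EuclideanSpace ℝ (Fin k)) := fun i =>
    {g | dist (i.1 : H) i.2 ≤ ‖g i.1 - g i.2‖ ∧ ‖g i.1 - g i.2‖ ≤ D * dist (i.1 : H) i.2} with ht
  have htc : ∀ i, IsClosed (t i) := by
    intro i
    have hcont : Continuous fun g : H → EuclideanSpace ℝ (Fin k) => ‖g i.1 - g i.2‖ := by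
      fun_prop
    exact (isClosed_le continuous_const hcont).inter (isClosed_le hcont continuous_const)
  obtain ⟨g, hgK, hg⟩ := hKc.inter_iInter_nonempty t htc (by
    intro u
    set F : Finset H := insert x0 (u.image (fun i => (i.1 : H)) ∪ u.image (fun i => (i.2 : H)))
      with hF
    have hFX : (F : Set H) ⊆ X := by
      intro y hy
      rw [hF, mem_coe, mem_insert, mem_union, mem_image, mem_image] at hy
      rcases hy with rfl | ⟨i, _, rfl⟩ | ⟨i, _, rfl⟩
      · exact hx0
      · exact i.1.2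
      · exact i.2.2
    obtain ⟨a, f, ha, hf⟩ := h F hFX
    have hx0F : x0 ∈ F := mem_insert_self _ _
    refine ⟨fun x => if x ∈ F then a⁻¹ • (f x - f x0) else 0, ?_, ?_⟩
    · rw [hK, Set.mem_univ_pi]
      intro x
      rw [mem_closedBall, dist_zero_right]
      by_cases hx : x ∈ F
      · rw [if_pos hx, norm_smul, norm_inv, Real.norm_eq_abs, abs_of_pos ha,
          inv_mul_le_iff₀ ha]
        have := (hf x (mem_coe.2 hx) x0 (mem_coe.2 hx0F)).2
        calc ‖f x - f x0‖ ≤ D * a * dist x x0 := this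
          _ = a * (D * dist x x0) := by ring
      · rw [if_neg hx, norm_zero]
        positivity
    · simp only [Set.mem_iInter]
      intro i hi
      have h1 : (i.1 : H) ∈ F := by
        rw [hF, mem_insert, mem_union]
        exact Or.inr (Or.inl (mem_image_of_mem _ hi))
      have h2 : (i.2 : H) ∈ F := by
        rw [hF, mem_insert, mem_union]
        exact Or.inr (Or.inr (mem_image_of_mem _ hi))
      have h3 := hf _ (mem_coe.2 h1) _ (mem_coe.2 h2)
      have e : a⁻¹ • (f i.1 - f x0) - a⁻¹ • (f i.2 - f x0) = a⁻¹ • (f i.1 - f i.2) := by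
        rw [← smul_sub, sub_sub_sub_cancel_right]
      rw [ht]
      simp only [Set.mem_ofPred_eq, if_pos h1, if_pos h2]
      rw [e, norm_smul, norm_inv, Real.norm_eq_abs, abs_of_pos ha]
      constructor
      · rw [le_inv_mul_iff₀ ha]
        exact h3.1
      · rw [inv_mul_le_iff₀ ha]
        calc ‖f i.1 - f i.2‖ ≤ D * a * dist (i.1 : H) i.2 := h3.2
          _ = a * (D * dist (i.1 : H) i.2) := by ring)
  refine ⟨1, g, one_pos, fun x hx y hy => ?_⟩
  have h1 : g ∈ t (⟨x, hx⟩, ⟨y, hy⟩) := Set.mem_iInter.1 hg _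
  rw [ht] at h1
  simp only [Set.mem_ofPred_eq] at h1
  rw [one_mul, mul_one]
  exact h1

end basic

section glue
variable {H : Type*} [NormedAddCommGroup H] [NormedSpace ℝ H]

theorem sim_dist (p x0 : H) {t : ℝ} (ht : 0 < t) (x y : H) :
    dist (p + t • (x - x0)) (p + t • (y - x0)) = t * dist x y := by
  rw [dist_eq_norm, dist_eq_norm, add_sub_add_left_eq_sub, ← smul_sub, sub_sub_sub_cancel_right,
    norm_smul, Real.norm_eq_abs, abs_of_pos ht]

theorem sim_doubling {F : Set H} {lam : ℕ} (p x0 : H) {t : ℝ} (ht : 0 < t)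
    (hF : Doubling closedBall F lam) :
    Doubling closedBall ((fun x => p + t • (x - x0)) '' F) lam := by
  classical
  rintro _ ⟨x, hx, rfl⟩ r hr
  obtain ⟨C, hCF, hCc, hC⟩ := hF x hx (r / t) (by positivity)
  refine ⟨C.image (fun x => p + t • (x - x0)), ?_, card_image_le.trans hCc, ?_⟩
  · rw [coe_image]
    exact Set.image_mono hCF
  · rintro _ ⟨⟨y, hy, rfl⟩, hyr⟩
    rw [mem_closedBall] at hyr
    simp only at hyr
    rw [sim_dist p x0 ht] at hyr
    have h1 : y ∈ F ∩ closedBall x (r / t) := by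
      refine ⟨hy, ?_⟩
      rw [mem_closedBall, le_div_iff₀ ht]
      linarith
    have h2 := hC h1
    simp only [Set.mem_iUnion] at h2 ⊢
    obtain ⟨c, hc, hyc⟩ := h2
    refine ⟨_, mem_image_of_mem _ hc, ?_⟩
    rw [mem_closedBall] at hyc ⊢
    rw [sim_dist p x0 ht]
    have h3 : r / t / 2 = r / 2 / t := by ring
    rw [h3, le_div_iff₀ ht] at hyc
    linarith

theorem sim_embeds {F : Set H} {k : ℕ} {D : ℝ} (p x0 : H) {t : ℝ} (ht : 0 < t)
    (h : EmbedsInto ((fun x => p + t • (x - x0)) '' F) k D) : EmbedsInto F k D := by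
  obtain ⟨a, f, ha, hf⟩ := h
  refine ⟨a * t, fun x => f (p + t • (x - x0)), by positivity, fun x hx y hy => ?_⟩
  have h1 := hf _ ⟨x, hx, rfl⟩ _ ⟨y, hy, rfl⟩
  simp only at h1
  rw [sim_dist p x0 ht] at h1
  constructor
  · calc a * t * dist x y = a * (t * dist x y) := by ring
      _ ≤ _ := h1.1
  · calc _ ≤ D * a * (t * dist x y) := h1.2
      _ = D * (a * t) * dist x y := by ring

/-- Gluing along a sparse sequence on a line. -/
theorem glue (e : H) (he : ‖e‖ = 1) (G : ℕ → Set H) (lam : ℕ)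
    (hp : ∀ n, ((100 : ℝ) ^ n) • e ∈ G n)
    (hG : ∀ n, G n ⊆ closedBall (((100 : ℝ) ^ n) • e) 1)
    (hd : ∀ n, Doubling closedBall (G n) lam) :
    Doubling closedBall (⋃ n, G n) (lam + 3) := by
  classical
  have hdist : ∀ m n : ℕ, dist (((100 : ℝ) ^ m) • e) (((100 : ℝ) ^ n) • e)
      = |(100 : ℝ) ^ m - 100 ^ n| := by
    intro m n
    rw [dist_eq_norm, ← sub_smul, norm_smul, he, mul_one, Real.norm_eq_abs]
  -- distances between different pieces
  have hgap : ∀ m n : ℕ, m < n → (99 / 100 : ℝ) * 100 ^ n ≤ |(100 : ℝ) ^ m - 100 ^ n| := by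
    intro m n hmn
    have h1 : (100 : ℝ) ^ m * 100 ≤ 100 ^ n := by
      rw [← pow_succ]
      exact pow_le_pow_right₀ (by norm_num) hmn
    rw [abs_sub_comm]
    refine le_trans ?_ (le_abs_self _)
    linarith
  intro x hx r hr
  obtain ⟨n, hxn⟩ := Set.mem_iUnion.1 hx
  have hxp : dist x (((100 : ℝ) ^ n) • e) ≤ 1 := mem_closedBall.1 (hG n hxn)
  have hfar : ∀ m y, y ∈ G m → dist y x ≤ r → m ≠ n →
      (99 / 100 : ℝ) * 100 ^ (max m n) ≤ r + 2 := by
    intro m y hy hyr hmn
    have hyp : dist y (((100 : ℝ) ^ m) • e) ≤ 1 := mem_closedBall.1 (hG m hy)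
    have h1 : |(100 : ℝ) ^ m - 100 ^ n| ≤ r + 2 := by
      rw [← hdist]
      have h2 := dist_triangle4 (((100 : ℝ) ^ m) • e) y x (((100 : ℝ) ^ n) • e)
      rw [dist_comm (((100 : ℝ) ^ m) • e) y] at h2
      linarith
    rcases lt_or_gt_of_ne hmn with h | h
    · rw [max_eq_right h.le]
      exact (hgap m n h).trans h1
    · rw [max_eq_left h.le]
      rw [abs_sub_comm] at h1
      exact (hgap n m h).trans h1
  by_cases hr90 : r ≤ 90
  · obtain ⟨C, hCG, hCc, hC⟩ := hd n x hxn r hr
    refine ⟨C, hCG.trans (Set.subset_iUnion G n), by omega, ?_⟩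
    rintro y ⟨hy, hyr⟩
    obtain ⟨m, hym⟩ := Set.mem_iUnion.1 hy
    by_cases hmn : m = n
    · subst hmn
      exact hC ⟨hym, hyr⟩
    · exfalso
      have h1 := hfar m y hym (mem_closedBall.1 hyr) hmn
      have h2 : (100 : ℝ) ^ 1 ≤ 100 ^ (max m n) :=
        pow_le_pow_right₀ (by norm_num) (by omega)
      linarith
  · push Not at hr90
    obtain ⟨M, hM1, hM2⟩ := exists_nat_pow_near (x := (100 / 99 : ℝ) * (r + 2)) (y := 100)
      (by linarith) (by norm_num)
    refine ⟨{((100 : ℝ) ^ 0) • e, ((100 : ℝ) ^ M) • e, ((100 : ℝ) ^ n) • e}, ?_, ?_, ?_⟩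
    · intro y hy
      simp only [coe_insert, coe_singleton, Set.mem_insert_iff, Set.mem_singleton_iff] at hy
      rcases hy with rfl | rfl | rfl
      · exact Set.mem_iUnion.2 ⟨0, hp 0⟩
      · exact Set.mem_iUnion.2 ⟨M, hp M⟩
      · exact Set.mem_iUnion.2 ⟨n, hp n⟩
    · exact card_le_three.trans (by omega)
    · rintro y ⟨hy, hyr⟩
      obtain ⟨m, hym⟩ := Set.mem_iUnion.1 hy
      have hyp : dist y (((100 : ℝ) ^ m) • e) ≤ 1 := mem_closedBall.1 (hG m hym)
      simp only [Set.mem_iUnion]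
      by_cases hmn : m = n
      · subst hmn
        refine ⟨((100 : ℝ) ^ m) • e, by simp, ?_⟩
        rw [mem_closedBall]
        linarith
      · have h1 := hfar m y hym (mem_closedBall.1 hyr) hmn
        have h2 : (100 : ℝ) ^ m ≤ 100 ^ (max m n) :=
          pow_le_pow_right₀ (by norm_num) (le_max_left _ _)
        have h3 : (100 : ℝ) ^ m < 100 ^ (M + 1) := by linarith
        have h4 : m < M + 1 := (pow_lt_pow_iff_right₀ (by norm_num)).1 h3
        rcases Nat.lt_or_ge m M with h5 | h5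
        · refine ⟨((100 : ℝ) ^ 0) • e, by simp, ?_⟩
          rw [mem_closedBall]
          have h6 := dist_triangle y (((100 : ℝ) ^ m) • e) (((100 : ℝ) ^ 0) • e)
          rw [hdist] at h6
          have h7 : |(100 : ℝ) ^ m - 100 ^ 0| = 100 ^ m - 1 := by
            rw [pow_zero, abs_of_nonneg]
            have : (1 : ℝ) ≤ 100 ^ m := one_le_pow₀ (by norm_num)
            linarith
          rw [h7] at h6
          have h8 : (100 : ℝ) ^ m * 100 ≤ 100 ^ M := by
            rw [← pow_succ]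
            exact pow_le_pow_right₀ (by norm_num) h5
          have h9 : (100 : ℝ) ^ m * 100 ≤ (100 / 99 : ℝ) * (r + 2) := h8.trans hM1
          have h10 : (100 : ℝ) ^ m ≤ (r + 2) / 99 := by
            generalize (100 : ℝ) ^ m = u at h9
            linarith
          have h11 : dist y (((100 : ℝ) ^ 0) • e) ≤ (100 : ℝ) ^ m := by
            generalize dist y (((100 : ℝ) ^ 0) • e) = d0 at h6
            generalize (100 : ℝ) ^ m = u at h6 hyp ⊢
            linarith
          refine h11.trans (h10.trans ?_)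
          linarith
        · have h6 : m = M := by omega
          subst h6
          refine ⟨((100 : ℝ) ^ m) • e, by simp, ?_⟩
          rw [mem_closedBall]
          linarith

end glue

end Vale.Agent.P208X
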