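import Vale.Agent.P208X.Defs

/-!
# Doubling subsets of inner product spaces containing large grids
-/

namespace Vale.Agent.P208X

open Metric Finset

section count
variable {H : Type*} [PseudoMetricSpace H] {B : H → ℝ → Set H} {X : Set H} {lam : ℕ}

theorem cover_iter (hX : Doubling B X lam) (j : ℕ) : ∀ x ∈ X, ∀ r : ℝ, 0 < r →
    ∃ C : Finset H, (C : Set H) ⊆ X ∧ C.card ≤ lam ^ j ∧
      X ∩ B x r ⊆ ⋃ c ∈ C, B c (r / 2 ^ j) := by
  classical
  induction j with
  | zero =>
    intro x hx r hr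
    refine ⟨{x}, by simpa using hx, by simp, ?_⟩
    intro y hy
    simpa using hy.2
  | succ j ih =>
    intro x hx r hr
    obtain ⟨C, hCX, hCc, hC⟩ := ih x hx r hr
    have hr2 : 0 < r / 2 ^ j := by positivity
    choose! D hDX hDc hD using fun c (hc : c ∈ X) => hX c hc (r / 2 ^ j) hr2
    refine ⟨C.biUnion D, ?_, ?_, ?_⟩
    · intro y hy
      simp only [coe_biUnion, Set.mem_iUnion] at hy
      obtain ⟨c, hc, hyc⟩ := hy
      exact hDX c (hCX hc) hyc
    · calc (C.biUnion D).card ≤ ∑ c ∈ C, (D c).card := card_biUnion_le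
        _ ≤ ∑ _c ∈ C, lam := sum_le_sum fun c hc => hDc c (hCX hc)
        _ = C.card * lam := by simp
        _ ≤ lam ^ j * lam := Nat.mul_le_mul_right _ hCc
        _ = lam ^ (j + 1) := (pow_succ _ _).symm
    · intro y hy
      have h1 := hC hy
      simp only [Set.mem_iUnion] at h1
      obtain ⟨c, hc, hyc⟩ := h1
      have h2 := hD c (hCX hc) ⟨hy.1, hyc⟩
      simp only [Set.mem_iUnion] at h2 ⊢
      obtain ⟨d, hd, hyd⟩ := h2
      refine ⟨d, mem_biUnion.2 ⟨c, hc, hd⟩, ?_⟩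
      rw [pow_succ, ← div_div]
      exact hyd

theorem count (hB : ∀ x r y z, y ∈ B x r → z ∈ B x r → dist y z ≤ 2 * r)
    (hX : Doubling B X lam) (j : ℕ) (x : H) (hx : x ∈ X) (r : ℝ) (hr : 0 < r) {ι : Type*}
    [Fintype ι] (P : ι → H) (hPX : ∀ i, P i ∈ X) (hPB : ∀ i, P i ∈ B x r)
    (sep : ∀ i k, i ≠ k → 2 * (r / 2 ^ j) < dist (P i) (P k)) :
    Fintype.card ι ≤ lam ^ j := by
  classical
  obtain ⟨C, hCX, hCc, hC⟩ := cover_iter hX j x hx r hr
  have h1 : ∀ i, ∃ c ∈ C, P i ∈ B c (r / 2 ^ j) := by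
    intro i
    have := hC ⟨hPX i, hPB i⟩
    simpa only [Set.mem_iUnion, exists_prop] using this
  choose c hc hPc using h1
  refine le_trans ?_ hCc
  rw [← card_univ]
  refine card_le_card_of_injOn c (fun i _ => hc i) ?_
  intro i _ k _ hik
  by_contra hne
  have h2 := sep i k hne
  have h3 := hB _ _ _ _ (hPc i) (hik ▸ hPc k)
  linarith

end count

section grid
variable {H : Type*} [NormedAddCommGroup H] [NormedSpace ℝ H] {X : Set H} {lam : ℕ}
  {B : H → ℝ → Set H}

/-- A doubling set that contains similar copies of arbitrarily large `N`-dimensional grids has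
`2 ^ N ≤ lam`. -/
theorem grid_bound (hB : ∀ x r y z, y ∈ B x r → z ∈ B x r → dist y z ≤ 2 * r)
    (hB2 : ∀ x r y, dist y x < r → y ∈ B x r)
    (hX : Doubling B X lam) {N : ℕ} (v : Fin N → H) (hv : LinearIndependent ℝ v)
    (hgrid : ∀ m : ℕ, ∃ (p : H) (t : ℝ), 0 < t ∧ ∀ n : Fin N → ℕ, (∀ i, n i < m) →
      p + t • ∑ i, (n i : ℝ) • v i ∈ X) : 2 ^ N ≤ lam := by
  classical
  set L : (Fin N → ℝ) →ₗ[ℝ] H := Fintype.linearCombination ℝ v with hL
  have hLapp : ∀ a : Fin N → ℝ, L a = ∑ i, a i • v i := fun a => by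
    rw [hL, Fintype.linearCombination_apply]
  have hker : LinearMap.ker L = ⊥ := by
    rw [LinearMap.ker_eq_bot']
    intro a ha
    rw [hLapp] at ha
    funext i
    exact Fintype.linearIndependent_iff.1 hv a ha i
  obtain ⟨K, hK0, hK⟩ := L.exists_antilipschitzWith hker
  have hK0' : (0 : ℝ) < K := by exact_mod_cast hK0
  -- lower bound
  have low : ∀ a : Fin N → ℝ, ‖a‖ ≤ K * ‖L a‖ := by
    intro a
    have := hK.le_mul_dist a 0
    simpa [dist_zero_right, map_zero] using this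
  -- upper bound
  set V : ℝ := ∑ i, ‖v i‖ with hV
  have hV0 : 0 ≤ V := sum_nonneg fun i _ => norm_nonneg _
  have upp : ∀ (a : Fin N → ℝ) (M : ℝ), (∀ i, |a i| ≤ M) → ‖L a‖ ≤ M * V := by
    intro a M ha
    rw [hLapp, hV, mul_sum]
    refine (norm_sum_le _ _).trans (sum_le_sum fun i _ => ?_)
    rw [norm_smul, Real.norm_eq_abs]
    exact mul_le_mul_of_nonneg_right (ha i) (norm_nonneg _)
  obtain ⟨c, hc⟩ := pow_unbounded_of_one_lt (2 * (V + 1) * K) (one_lt_two : (1 : ℝ) < 2)
  have key : ∀ i : ℕ, (2 ^ i) ^ N ≤ lam ^ (i + c) := by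
    intro i
    obtain ⟨p, t, ht, hp⟩ := hgrid (2 ^ i)
    have hpX : p ∈ X := by
      have := hp (fun _ => 0) (fun _ => by positivity)
      simpa using this
    set r : ℝ := t * (V + 1) * 2 ^ i with hr
    have hr0 : 0 < r := by positivity
    have h1 := count hB hX (i + c) p hpX r hr0 (ι := Fin N → Fin (2 ^ i))
      (fun n => p + t • ∑ k, ((n k : ℕ) : ℝ) • v k)
      (fun n => hp (fun k => (n k : ℕ)) (fun k => (n k).2)) ?_ ?_
    · simpa using h1
    · intro n
      refine hB2 _ _ _ ?_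
      rw [dist_eq_norm, add_sub_cancel_left, norm_smul, Real.norm_eq_abs, abs_of_pos ht]
      have h2 := upp (fun k => ((n k : ℕ) : ℝ)) (2 ^ i) (fun k => by
        have h3 : ((n k : ℕ) : ℝ) ≤ ((2 ^ i : ℕ) : ℝ) := by exact_mod_cast (n k).2.le
        rw [abs_of_nonneg (Nat.cast_nonneg _)]
        simpa using h3)
      rw [hLapp] at h2
      calc t * ‖∑ k, ((n k : ℕ) : ℝ) • v k‖ ≤ t * (2 ^ i * V) :=
            mul_le_mul_of_nonneg_left h2 ht.le
        _ < r := by
            rw [hr]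
            have : 0 < t * (2 : ℝ) ^ i := by positivity
            nlinarith
    · intro n n' hne
      rw [dist_eq_norm, add_sub_add_left_eq_sub, ← smul_sub, norm_smul, Real.norm_eq_abs,
        abs_of_pos ht, ← sum_sub_distrib]
      have e1 : ∑ k, (((n k : ℕ) : ℝ) • v k - ((n' k : ℕ) : ℝ) • v k)
          = L (fun k => ((n k : ℕ) : ℝ) - ((n' k : ℕ) : ℝ)) := by
        rw [hLapp]
        exact sum_congr rfl fun k _ => (sub_smul _ _ _).symm
      rw [e1]
      have h2 := low (fun k => ((n k : ℕ) : ℝ) - ((n' k : ℕ) : ℝ))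
      have h3 : (1 : ℝ) ≤ ‖fun k => ((n k : ℕ) : ℝ) - ((n' k : ℕ) : ℝ)‖ := by
        obtain ⟨k, hk⟩ := Function.ne_iff.1 hne
        refine le_trans ?_ (norm_le_pi_norm _ k)
        rw [Real.norm_eq_abs]
        have hk' : ((n k : ℕ) : ℤ) - ((n' k : ℕ) : ℤ) ≠ 0 := by
          intro h
          apply hk
          apply Fin.ext
          have : ((n k : ℕ) : ℤ) = ((n' k : ℕ) : ℤ) := by linarith
          exact_mod_cast this
        have h4 := Int.one_le_abs hk'
        have h5 : ((1 : ℤ) : ℝ) ≤ ((|((n k : ℕ) : ℤ) - ((n' k : ℕ) : ℤ)| : ℤ) : ℝ) := by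
          exact_mod_cast h4
        simpa using h5
      set Z := ‖L (fun k => ((n k : ℕ) : ℝ) - ((n' k : ℕ) : ℝ))‖ with hZ
      have h6 : 1 ≤ K * Z := h3.trans h2
      have h7 : 2 * (r / 2 ^ (i + c)) * 2 ^ c = 2 * t * (V + 1) := by
        rw [hr, pow_add]
        field_simp
      have h8 : (0 : ℝ) < 2 ^ c := by positivity
      have h9 : 2 * t * (V + 1) < t * Z * 2 ^ c := by
        have h10 : 2 * (V + 1) * K * Z ≥ 2 * (V + 1) := by nlinarith
        have hZ0 : 0 < Z := by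
          by_contra hneg
          push Not at hneg
          nlinarith
        have h11 : 2 * (V + 1) * K * Z < 2 ^ c * Z := mul_lt_mul_of_pos_right hc hZ0
        nlinarith
      rw [← h7] at h9
      exact lt_of_mul_lt_mul_right h9 h8.le
  by_contra hlt
  push Not at hlt
  have hlam : 0 < lam := by
    rcases Nat.eq_zero_or_pos lam with h0 | h0
    · exfalso
      have := key 1
      rw [h0] at this
      simp at this
    · exact h0
  have hlamR : (0 : ℝ) < lam := by exact_mod_cast hlam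
  have hy : (1 : ℝ) < 2 ^ N / lam := by
    rw [one_lt_div hlamR]
    exact_mod_cast hlt
  obtain ⟨i, hi⟩ := pow_unbounded_of_one_lt ((lam : ℝ) ^ c) hy
  rw [div_pow, lt_div_iff₀ (by positivity)] at hi
  have h1 : (((2 ^ i) ^ N : ℕ) : ℝ) ≤ ((lam ^ (i + c) : ℕ) : ℝ) := by exact_mod_cast key i
  push_cast at h1
  rw [← pow_mul, mul_comm i N, pow_mul, pow_add] at h1
  linarith

end grid

end Vale.Agent.P208X
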